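import Vale.Agent.Lib.P002.GTMain

/-!
# P002: closed surfaces of every genus, every rank: a family of representations of full
# dimension in the closure of the integral points, over the ring of integers of `ℚ(√2)`

Let `X` be a compact Riemann surface of genus `n ≥ 2` (a smooth projective curve; no boundary,
no conditions), so that `π_1(X)` is generated by `a_1, b_1, …, a_n, b_n` with the single relation
`[a_1, b_1] ⋯ [a_n, b_n] = 1`, `[a, b] = a b a⁻¹ b⁻¹`.  A representation
`ρ : π_1(X) → SL_r(ℂ)` is a pair of tuples `(a, b)` of matrices satisfying this relation, with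
coordinates indexed by `(Fin n ⊕ Fin n) × Fin r × Fin r`.  The variety of such representations
up to conjugation has dimension `(2 n - 2) (r² - 1)`.

Let `L = ℚ(√2) ⊂ ℂ`.  The theorem gives, for every rank `r ≥ 2`, families of representations
`ρ = (A c d ϑ, B c d ϑ)`, where `c ∈ ℂ^r` and `d_1, …, d_n ∈ ℂ^r` are tuples of distinct complex
numbers with product `1` and `ϑ` runs over the torus `(ℂˣ)^κ`, where `κ` has
`m = (2 n - 2) (r² - 1) - (n + 1) (r - 1)` elements, such that
* every `ρ` satisfies the relation of `π_1(X)`; the characteristic polynomial of `B_j` is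
  `∏ (X - d_j i)` and that of `B_n ⋯ B_1` is `∏ (X - c i)` (so the `(n + 1) (r - 1)` parameters
  `c, d` are invariants of the conjugacy class of `ρ`);
* for fixed `c, d` the matrix entries of `ρ` are polynomials in the `ϑ i` and their inverses;
* for fixed `c, d` the representations for `ϑ ≠ ϑ'` are not conjugate by any invertible
  matrix;
* if `c, d` are generic (for `0 < k < r`, no product of `k` of the `c i` is the product over
  `j` of products of `k` of the `d_j i`), every `ρ` is irreducible;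
* every polynomial `F` in the coordinates that vanishes at all representations of `π_1(X)` with
  entries in the ring of integers `O_L` vanishes at every `ρ` of the families (for all complex
  `c, d` as above).
-/

namespace Vale.Agent.Results.P002.ClosedSurfacesAllRanks

open Polynomial Vale.Agent.Lib.P002

theorem result (n r : ℕ) (hn : 2 ≤ n) (hr : 2 ≤ r) :
    ∃ L : IntermediateField ℚ ℂ,
      L = IntermediateField.adjoin ℚ {((Real.sqrt 2 : ℝ) : ℂ)} ∧
      FiniteDimensional ℚ L ∧
      ∃ (κ : Type) (_ : Fintype κ)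
        (A B : (Fin r → ℂ) → (Fin n → Fin r → ℂ) → (κ → Units ℂ) → Fin n →
          Matrix.SpecialLinearGroup (Fin r) ℂ),
        Fintype.card κ + (n + 1) * (r - 1) = (2 * n - 2) * (r ^ 2 - 1) ∧
        ∀ (c : Fin r → ℂ) (d : Fin n → Fin r → ℂ), Function.Injective c →
          (∀ j, Function.Injective (d j)) → ∏ i, c i = 1 → (∀ j, ∏ i, d j i = 1) →
          (∀ ϑ, (List.ofFn fun j => A c d ϑ j * B c d ϑ j * (A c d ϑ j)⁻¹ *
                (B c d ϑ j)⁻¹).prod = 1 ∧
              (∀ j, (B c d ϑ j).1.charpoly = ∏ i, (X - C (d j i))) ∧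
              ((List.ofFn (B c d ϑ)).reverse.prod).1.charpoly = ∏ i, (X - C (c i))) ∧
          (∀ v : (Fin n ⊕ Fin n) × Fin r × Fin r, ∃ P : MvPolynomial (κ ⊕ κ) ℂ,
            ∀ ϑ : κ → Units ℂ,
              Sum.elim (fun j => (A c d ϑ j).1) (fun j => (B c d ϑ j).1) v.1 v.2.1 v.2.2 =
                MvPolynomial.eval
                  (Sum.elim (fun i => (ϑ i : ℂ)) (fun i => (((ϑ i)⁻¹ : Units ℂ) : ℂ))) P) ∧
          (∀ ϑ ϑ' : κ → Units ℂ,
            (∃ γ : Matrix (Fin r) (Fin r) ℂ, γ.det ≠ 0 ∧
              (∀ j, γ * (A c d ϑ j).1 = (A c d ϑ' j).1 * γ) ∧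
              (∀ j, γ * (B c d ϑ j).1 = (B c d ϑ' j).1 * γ)) → ϑ = ϑ') ∧
          ((∀ (S : Finset (Fin r)) (T : Fin n → Finset (Fin r)), S.Nonempty →
              S ≠ Finset.univ → (∀ j, (T j).card = S.card) →
              ∏ i ∈ S, c i ≠ ∏ j, ∏ i ∈ T j, d j i) →
            ∀ (ϑ : κ → Units ℂ) (V : Submodule ℂ (Fin r → ℂ)),
              (∀ j, ∀ v ∈ V, (A c d ϑ j).1.mulVec v ∈ V) →
              (∀ j, ∀ v ∈ V, (B c d ϑ j).1.mulVec v ∈ V) → V = ⊥ ∨ V = ⊤) ∧
          ∀ F : MvPolynomial ((Fin n ⊕ Fin n) × Fin r × Fin r) ℂ,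
            (∀ a b : Fin n → Matrix.SpecialLinearGroup (Fin r) ℂ,
              (∀ j i k, (a j).1 i k ∈ L ∧ IsIntegral ℤ ((a j).1 i k)) →
              (∀ j i k, (b j).1 i k ∈ L ∧ IsIntegral ℤ ((b j).1 i k)) →
              (List.ofFn fun j => a j * b j * (a j)⁻¹ * (b j)⁻¹).prod = 1 →
              MvPolynomial.eval (fun v => Sum.elim (fun j => (a j).1) (fun j => (b j).1)
                v.1 v.2.1 v.2.2) F = 0) →
            ∀ ϑ, MvPolynomial.eval (fun v => Sum.elim (fun j => (A c d ϑ j).1)
              (fun j => (B c d ϑ j).1) v.1 v.2.1 v.2.2) F = 0 :=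
  gt_closed n r hn hr

end Vale.Agent.Results.P002.ClosedSurfacesAllRanks
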