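import Vale.Agent.Lib.P002.GTMain
import Vale.Agent.Lib.P002.GQFull
import Vale.Agent.Lib.P002.SeifAll

/-!
# P002: every curve and the Seifert-type groups, every rank: full-dimensional families in the closure
# of the integral points (curves), density of the integral points (Seifert-type groups)

One statement for all smooth complex curves `X` of negative Euler characteristic
(`[a, b] = a b a⁻¹ b⁻¹` throughout).

* `ClosedFamily n r L` (closed surface of genus `n`, no boundary; `π_1(X)` is generated by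
  `a_1, b_1, …, a_n, b_n` with the relation `[a_1, b_1] ⋯ [a_n, b_n] = 1`): there are a finite
  type `κ` with `m = (2 n - 2) (r² - 1) - (n + 1) (r - 1)` elements and representations
  `ρ = (A c d ϑ, B c d ϑ)` of `π_1(X)` in `SL_r(ℂ)`, for `c, d_1, …, d_n ∈ ℂ^r` with distinct
  entries of product `1` and `ϑ ∈ (ℂˣ)^κ`, such that the characteristic polynomials of `B_j` and
  of `B_n ⋯ B_1` are `∏ (X - d_j i)` and `∏ (X - c i)`; the entries of `ρ` are polynomials in
  the `ϑ i` and their inverses; for fixed `c, d`, `ρ` for `ϑ ≠ ϑ'` are not conjugate; `ρ` is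
  irreducible if `c, d` are generic (for `0 < k < r` no product of `k` of the `c i` is the
  product over `j` of products of `k` of the `d_j i`); and every polynomial `F` in the matrix
  entries that vanishes at all representations of `π_1(X)` with entries in the ring of integers
  `O_L` vanishes at every `ρ`.
* `PuncturedFamily g n r c d L` (surface of genus `g` minus `n + 1` points; `π_1(X)` is free on
  `x_h, y_h, z_j`, the boundary monodromies are the `z_j` and
  `W = [x_1, y_1] ⋯ [x_g, y_g] z_1 ⋯ z_n`; the boundary conditions prescribe the characteristic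
  polynomials `∏ (X - d j i)` of `z j` and `∏ (X - c i)` of `W`): there are a finite type `ι`
  with `m = (r - 1) ((2 g + n - 1) r + 2 g - 2)` elements and representations
  `ρ_s = (x s, y s, z s)`, `s ∈ (ℂˣ)^ι`, satisfying the boundary conditions, with entries
  polynomial in the `s i` and their inverses, pairwise non-conjugate if `c` and each `d j` have
  distinct entries, irreducible if `c, d` are generic (as above), such that every polynomial `F`
  in the matrix entries that vanishes at all representations with entries in `O_L` satisfying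
  the boundary conditions vanishes at every `ρ_s`.

The theorem: `ClosedFamily n r L` holds for all `n, r ≥ 2` with `L = ℚ(√2)`, and
`PuncturedFamily g n r c d L` holds for all `g, n, r` with `2 g + n ≥ 2` and all algebraic
integers `c i`, `d j i` with `∏ c i = ∏ d j i = 1`, with `L = ℚ(c, d, √2)`.

The third part is the theorem of the hand-in `SeifertDensity`, word for word: for the groups
`⟨a_0, …, a_k, c_1, …, c_m | a_i ^ p_i = a_0 ^ p_0, [c_j, a_0 ^ p_0] = 1⟩` (torus knot groups,
`ℤ × F_m`) and every rank `r` there is a number field `L` such that every polynomial that is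
invariant under simultaneous conjugation on the representations in `SL_r(ℂ)` and vanishes at
the representations with entries in `O_L` vanishes at all representations.
-/

namespace Vale.Agent.Results.P002.CurvesAndSeifertAllRanks

open Polynomial Vale.Agent.Lib.P002

/-- Closed surface of genus `n`, rank `r`: a full-dimensional family of representations in the
closure of the representations with entries in the ring of integers of `L`. -/
def ClosedFamily (n r : ℕ) (L : IntermediateField ℚ ℂ) : Prop :=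
  ∃ (κ : Type) (_ : Fintype κ)
    (A B : (Fin r → ℂ) → (Fin n → Fin r → ℂ) → (κ → Units ℂ) → Fin n →
      Matrix.SpecialLinearGroup (Fin r) ℂ),
    Fintype.card κ + (n + 1) * (r - 1) = (2 * n - 2) * (r ^ 2 - 1) ∧
    ∀ (c : Fin r → ℂ) (d : Fin n → Fin r → ℂ), Function.Injective c →
      (∀ j, Function.Injective (d j)) → ∏ i, c i = 1 → (∀ j, ∏ i, d j i = 1) →
      (∀ ϑ, (List.ofFn fun j => A c d ϑ j * B c d ϑ j * (A c d ϑ j)⁻¹ *
            (B c d ϑ j)⁻¹).prod = 1 ∧
          (∀ j, (B c d ϑ j).1.charpoly = ∏ i, (X - C (d j i))) ∧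
          ((List.ofFn (B c d ϑ)).reverse.prod).1.charpoly = ∏ i, (X - C (c i))) ∧
      (∀ v : (Fin n ⊕ Fin n) × Fin r × Fin r, ∃ P : MvPolynomial (κ ⊕ κ) ℂ,
        ∀ ϑ : κ → Units ℂ,
          Sum.elim (fun j => (A c d ϑ j).1) (fun j => (B c d ϑ j).1) v.1 v.2.1 v.2.2 =
            MvPolynomial.eval
              (Sum.elim (fun i => (ϑ i : ℂ)) (fun i => (((ϑ i)⁻¹ : Units ℂ) : ℂ))) P) ∧
      (∀ ϑ ϑ' : κ → Units ℂ,
        (∃ γ : Matrix (Fin r) (Fin r) ℂ, γ.det ≠ 0 ∧
          (∀ j, γ * (A c d ϑ j).1 = (A c d ϑ' j).1 * γ) ∧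
          (∀ j, γ * (B c d ϑ j).1 = (B c d ϑ' j).1 * γ)) → ϑ = ϑ') ∧
      ((∀ (S : Finset (Fin r)) (T : Fin n → Finset (Fin r)), S.Nonempty →
          S ≠ Finset.univ → (∀ j, (T j).card = S.card) →
          ∏ i ∈ S, c i ≠ ∏ j, ∏ i ∈ T j, d j i) →
        ∀ (ϑ : κ → Units ℂ) (V : Submodule ℂ (Fin r → ℂ)),
          (∀ j, ∀ v ∈ V, (A c d ϑ j).1.mulVec v ∈ V) →
          (∀ j, ∀ v ∈ V, (B c d ϑ j).1.mulVec v ∈ V) → V = ⊥ ∨ V = ⊤) ∧
      ∀ F : MvPolynomial ((Fin n ⊕ Fin n) × Fin r × Fin r) ℂ,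
        (∀ a b : Fin n → Matrix.SpecialLinearGroup (Fin r) ℂ,
          (∀ j i k, (a j).1 i k ∈ L ∧ IsIntegral ℤ ((a j).1 i k)) →
          (∀ j i k, (b j).1 i k ∈ L ∧ IsIntegral ℤ ((b j).1 i k)) →
          (List.ofFn fun j => a j * b j * (a j)⁻¹ * (b j)⁻¹).prod = 1 →
          MvPolynomial.eval (fun v => Sum.elim (fun j => (a j).1) (fun j => (b j).1)
            v.1 v.2.1 v.2.2) F = 0) →
        ∀ ϑ, MvPolynomial.eval (fun v => Sum.elim (fun j => (A c d ϑ j).1)
          (fun j => (B c d ϑ j).1) v.1 v.2.1 v.2.2) F = 0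

/-- Genus `g` surface minus `n + 1` points, rank `r`, prescribed characteristic polynomials of
the boundary monodromies (roots `d j i` and `c i`): a full-dimensional family of representations
in the closure of the representations with entries in the ring of integers of `L` and the same
characteristic polynomials. -/
def PuncturedFamily (g n r : ℕ) (c : Fin r → ℂ) (d : Fin n → Fin r → ℂ)
    (L : IntermediateField ℚ ℂ) : Prop :=
  ∃ (ι : Type) (_ : Fintype ι)
    (x y : (ι → Units ℂ) → Fin g → Matrix.SpecialLinearGroup (Fin r) ℂ)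
    (z : (ι → Units ℂ) → Fin n → Matrix.SpecialLinearGroup (Fin r) ℂ),
    Fintype.card ι + 2 * (r - 1) = (r - 1) * ((2 * g + n - 1) * r + 2 * g) ∧
    (∀ s, (∀ t, (z s t).1.charpoly = ∏ i, (X - C (d t i))) ∧
      ((List.ofFn fun h => x s h * y s h * (x s h)⁻¹ * (y s h)⁻¹).prod *
        (List.ofFn (z s)).prod).1.charpoly = ∏ i, (X - C (c i))) ∧
    (∀ v : (Fin g ⊕ Fin g ⊕ Fin n) × Fin r × Fin r, ∃ P : MvPolynomial (ι ⊕ ι) ℂ,
      ∀ s : ι → Units ℂ,
        Sum.elim (fun h => (x s h).1) (Sum.elim (fun h => (y s h).1) (fun t => (z s t).1))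
          v.1 v.2.1 v.2.2 =
        MvPolynomial.eval
          (Sum.elim (fun i => (s i : ℂ)) (fun i => (((s i)⁻¹ : Units ℂ) : ℂ))) P) ∧
    (Function.Injective c → (∀ j, Function.Injective (d j)) →
      ∀ s s' : ι → Units ℂ,
        (∃ γ : Matrix (Fin r) (Fin r) ℂ, γ.det ≠ 0 ∧
          (∀ h, γ * (x s h).1 = (x s' h).1 * γ) ∧ (∀ h, γ * (y s h).1 = (y s' h).1 * γ) ∧
          (∀ t, γ * (z s t).1 = (z s' t).1 * γ)) → s = s') ∧
    ((∀ (S : Finset (Fin r)) (T : Fin n → Finset (Fin r)), S.Nonempty →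
        S ≠ Finset.univ → (∀ j, (T j).card = S.card) →
        ∏ i ∈ S, c i ≠ ∏ j, ∏ i ∈ T j, d j i) →
      ∀ (s : ι → Units ℂ) (V : Submodule ℂ (Fin r → ℂ)),
        (∀ h, ∀ v ∈ V, (x s h).1.mulVec v ∈ V) → (∀ h, ∀ v ∈ V, (y s h).1.mulVec v ∈ V) →
        (∀ t, ∀ v ∈ V, (z s t).1.mulVec v ∈ V) → V = ⊥ ∨ V = ⊤) ∧
    ∀ F : MvPolynomial ((Fin g ⊕ Fin g ⊕ Fin n) × Fin r × Fin r) ℂ,
      (∀ (x' y' : Fin g → Matrix.SpecialLinearGroup (Fin r) ℂ)
          (z' : Fin n → Matrix.SpecialLinearGroup (Fin r) ℂ),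
        (∀ h i j, (x' h).1 i j ∈ L ∧ IsIntegral ℤ ((x' h).1 i j)) →
        (∀ h i j, (y' h).1 i j ∈ L ∧ IsIntegral ℤ ((y' h).1 i j)) →
        (∀ t i j, (z' t).1 i j ∈ L ∧ IsIntegral ℤ ((z' t).1 i j)) →
        (∀ t, (z' t).1.charpoly = ∏ i, (X - C (d t i))) →
        ((List.ofFn fun h => x' h * y' h * (x' h)⁻¹ * (y' h)⁻¹).prod *
          (List.ofFn z').prod).1.charpoly = ∏ i, (X - C (c i)) →
        MvPolynomial.eval (fun v => Sum.elim (fun h => (x' h).1)
          (Sum.elim (fun h => (y' h).1) (fun t => (z' t).1)) v.1 v.2.1 v.2.2) F = 0) →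
      ∀ s, MvPolynomial.eval (fun v => Sum.elim (fun h => (x s h).1)
        (Sum.elim (fun h => (y s h).1) (fun t => (z s t).1)) v.1 v.2.1 v.2.2) F = 0

theorem result :
    (∀ n r : ℕ, 2 ≤ n → 2 ≤ r →
      ∃ L : IntermediateField ℚ ℂ,
        L = IntermediateField.adjoin ℚ {((Real.sqrt 2 : ℝ) : ℂ)} ∧
        FiniteDimensional ℚ L ∧ ClosedFamily n r L) ∧
    (∀ (g n r : ℕ), 2 ≤ 2 * g + n → ∀ (c : Fin r → ℂ) (d : Fin n → Fin r → ℂ),
      (∀ i, IsIntegral ℤ (c i)) → (∀ j i, IsIntegral ℤ (d j i)) →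
      ∏ i, c i = 1 → (∀ j, ∏ i, d j i = 1) →
      ∃ L : IntermediateField ℚ ℂ,
        L = IntermediateField.adjoin ℚ (Set.range c ∪
          Set.range (fun v : Fin n × Fin r => d v.1 v.2) ∪ {((Real.sqrt 2 : ℝ) : ℂ)}) ∧
        FiniteDimensional ℚ L ∧ PuncturedFamily g n r c d L) ∧
    (∀ (k m r : ℕ) (p : Fin (k + 1) → ℕ), (∀ i, 0 < p i) →
      ∃ L : IntermediateField ℚ ℂ, FiniteDimensional ℚ L ∧
        ∀ F : MvPolynomial ((Fin (k + 1) ⊕ Fin m) × Fin r × Fin r) ℂ,
          (∀ (A : Fin (k + 1) → Matrix.SpecialLinearGroup (Fin r) ℂ)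
              (C : Fin m → Matrix.SpecialLinearGroup (Fin r) ℂ)
              (h : Matrix.SpecialLinearGroup (Fin r) ℂ),
              (∀ i, A i ^ p i = A 0 ^ p 0) → (∀ j, C j * A 0 ^ p 0 = A 0 ^ p 0 * C j) →
              MvPolynomial.eval
                  (fun x => (Sum.elim (fun i => (h * A i * h⁻¹).1) (fun j => (h * C j * h⁻¹).1)
                    x.1) x.2.1 x.2.2) F
                = MvPolynomial.eval
                  (fun x => (Sum.elim (fun i => (A i).1) (fun j => (C j).1) x.1) x.2.1 x.2.2) F) →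
          (∀ (A : Fin (k + 1) → Matrix.SpecialLinearGroup (Fin r) ℂ)
              (C : Fin m → Matrix.SpecialLinearGroup (Fin r) ℂ),
              (∀ i, A i ^ p i = A 0 ^ p 0) → (∀ j, C j * A 0 ^ p 0 = A 0 ^ p 0 * C j) →
              (∀ i a b, (A i).1 a b ∈ L ∧ IsIntegral ℤ ((A i).1 a b)) →
              (∀ j a b, (C j).1 a b ∈ L ∧ IsIntegral ℤ ((C j).1 a b)) →
              MvPolynomial.eval
                (fun x => (Sum.elim (fun i => (A i).1) (fun j => (C j).1) x.1) x.2.1 x.2.2) F
                = 0) →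
          ∀ (A : Fin (k + 1) → Matrix.SpecialLinearGroup (Fin r) ℂ)
            (C : Fin m → Matrix.SpecialLinearGroup (Fin r) ℂ),
            (∀ i, A i ^ p i = A 0 ^ p 0) → (∀ j, C j * A 0 ^ p 0 = A 0 ^ p 0 * C j) →
            MvPolynomial.eval
              (fun x => (Sum.elim (fun i => (A i).1) (fun j => (C j).1) x.1) x.2.1 x.2.2) F
              = 0) :=
  ⟨fun n r hn hr => gt_closed n r hn hr,
    fun g n r hN c d hc hd hc1 hd1 => gq_family_irred g n r hN c d hc hd hc1 hd1,
    fun k m r p hp => density_seifert k m r p hp⟩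

end Vale.Agent.Results.P002.CurvesAndSeifertAllRanks
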