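import Vale.Agent.Lib.P002.RegAll

/-!
# P002: potential density of integral points in rank three on the thrice punctured sphere,
for all boundary classes

Let `X` be the projective line minus three points, so `π_1(X)` is free on the meridians
`γ_1, γ_2`, and `γ_3 = (γ_1 γ_2)⁻¹` is the third meridian.  A representation
`ρ : π_1(X) → SL_3(ℂ)` is a pair `(A, B) = (ρ(γ_1), ρ(γ_2))`, with coordinates indexed by
`Fin 2 × Fin 3 × Fin 3`, and `ρ(γ_3) = (A B)⁻¹`.

Let `C₁, C₂, C₃` be arbitrary elements of `SL_3(ℂ)` all of whose eigenvalues are algebraic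
integers (for instance roots of unity: the quasi-unipotent case); they represent the three
boundary classes, which may be regular or not, semisimple or not.  The boundary conditions say
that `A`, `B` and `(A B)⁻¹` are conjugate in `SL_3(ℂ)` to `C₁`, `C₂` and `C₃`.  The set `Y` is the
set of classes of the semisimple pairs with these properties; semisimple means that each common
invariant subspace has a common invariant complement.

The theorem says: there is a number field `L ⊂ ℂ` such that every polynomial `F` in the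
coordinates which is invariant under simultaneous conjugation by `SL_3(ℂ)`, and vanishes at
every such semisimple pair with all matrix entries in the ring of integers of `L`, vanishes at
every such semisimple pair.  So the integral points of `Y` are Zariski dense in `Y`.
-/

namespace Vale.Agent.Results.P002.PantsRankThreeAllClasses

theorem result (C₁ C₂ C₃ : Matrix.SpecialLinearGroup (Fin 3) ℂ)
    (h₁ : ∀ z : ℂ, C₁.1.charpoly.IsRoot z → IsIntegral ℤ z)
    (h₂ : ∀ z : ℂ, C₂.1.charpoly.IsRoot z → IsIntegral ℤ z)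
    (h₃ : ∀ z : ℂ, C₃.1.charpoly.IsRoot z → IsIntegral ℤ z) :
    ∃ L : IntermediateField ℚ ℂ, FiniteDimensional ℚ L ∧
      ∀ F : MvPolynomial (Fin 2 × Fin 3 × Fin 3) ℂ,
        (∀ A B h : Matrix.SpecialLinearGroup (Fin 3) ℂ,
          MvPolynomial.eval (fun x => (![(h * A * h⁻¹).1, (h * B * h⁻¹).1] x.1) x.2.1 x.2.2) F
            = MvPolynomial.eval (fun x => (![A.1, B.1] x.1) x.2.1 x.2.2) F) →
        (∀ A B : Matrix.SpecialLinearGroup (Fin 3) ℂ,
          (∃ g : Matrix.SpecialLinearGroup (Fin 3) ℂ, g * A * g⁻¹ = C₁) →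
          (∃ g : Matrix.SpecialLinearGroup (Fin 3) ℂ, g * B * g⁻¹ = C₂) →
          (∃ g : Matrix.SpecialLinearGroup (Fin 3) ℂ, g * (A * B)⁻¹ * g⁻¹ = C₃) →
          (∀ W : Submodule ℂ (Fin 3 → ℂ), (∀ v ∈ W, A.1.mulVec v ∈ W) →
            (∀ v ∈ W, B.1.mulVec v ∈ W) →
            ∃ W' : Submodule ℂ (Fin 3 → ℂ), (∀ v ∈ W', A.1.mulVec v ∈ W') ∧
              (∀ v ∈ W', B.1.mulVec v ∈ W') ∧ IsCompl W W') →
          (∀ i j, A.1 i j ∈ L ∧ IsIntegral ℤ (A.1 i j)) →
          (∀ i j, B.1 i j ∈ L ∧ IsIntegral ℤ (B.1 i j)) →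
          MvPolynomial.eval (fun x => (![A.1, B.1] x.1) x.2.1 x.2.2) F = 0) →
        ∀ A B : Matrix.SpecialLinearGroup (Fin 3) ℂ,
          (∃ g : Matrix.SpecialLinearGroup (Fin 3) ℂ, g * A * g⁻¹ = C₁) →
          (∃ g : Matrix.SpecialLinearGroup (Fin 3) ℂ, g * B * g⁻¹ = C₂) →
          (∃ g : Matrix.SpecialLinearGroup (Fin 3) ℂ, g * (A * B)⁻¹ * g⁻¹ = C₃) →
          (∀ W : Submodule ℂ (Fin 3 → ℂ), (∀ v ∈ W, A.1.mulVec v ∈ W) →
            (∀ v ∈ W, B.1.mulVec v ∈ W) →
            ∃ W' : Submodule ℂ (Fin 3 → ℂ), (∀ v ∈ W', A.1.mulVec v ∈ W') ∧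
              (∀ v ∈ W', B.1.mulVec v ∈ W') ∧ IsCompl W W') →
          MvPolynomial.eval (fun x => (![A.1, B.1] x.1) x.2.1 x.2.2) F = 0 :=
  Vale.Agent.Lib.P002.density_all C₁ C₂ C₃ h₁ h₂ h₃

end Vale.Agent.Results.P002.PantsRankThreeAllClasses
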