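import Vale.Agent.Lib.P002.GQFull

/-!
# P002: a full-dimensional family of representations of punctured surface groups in the closure
# of the integral points, in every rank

Let `X` be a compact Riemann surface of genus `g` minus `n + 1` points, with `2 g + n ≥ 2`
(every smooth affine curve of negative Euler characteristic).  Then `π_1(X)` is free on
`x_1, y_1, …, x_g, y_g, z_1, …, z_n`, where `z_j` is the meridian of the `j`-th puncture and the
meridian of the last puncture is the inverse of `[x_1, y_1] ⋯ [x_g, y_g] z_1 ⋯ z_n`, with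
`[x, y] = x y x⁻¹ y⁻¹`.  A representation `ρ : π_1(X) → SL_r(ℂ)` is a tuple `(x, y, z)` of
matrices, with coordinates indexed by `(Fin g ⊕ Fin g ⊕ Fin n) × Fin r × Fin r`.  The boundary
conditions prescribe the characteristic polynomials `∏ (X - d j i)` of `z j` and `∏ (X - c i)` of
the product `[x_1, y_1] ⋯ [x_g, y_g] z_1 ⋯ z_n`, where `c` and the `d j` are algebraic integers
with product `1` (for instance roots of unity).  When the eigenvalues at each puncture are
distinct this says that all `n + 1` boundary monodromies lie in prescribed regular semisimple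
conjugacy classes, and the variety `Y` of such representations up to conjugation has dimension
`m = (r - 1) ((2 g + n - 1) r + 2 g - 2)`.

The theorem gives, for the number field `L ⊂ ℂ` generated by the prescribed eigenvalues and `√2`,
a family of representations `ρ_s = (x s, y s, z s)` indexed by `s ∈ (ℂˣ)^ι`, where `ι` has `m`
elements, such that
* every `ρ_s` satisfies the boundary conditions;
* every matrix entry of `ρ_s` is a polynomial in the `s i` and their inverses;
* if the prescribed eigenvalues at each puncture are distinct, then `ρ_s` and `ρ_s'` are not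
  conjugate (by any invertible matrix) for `s ≠ s'`;
* if the prescribed eigenvalues are generic (for `0 < k < r`, no product of `k` of the `c i` is
  the product over `j` of products of `k` of the `d j i`), then every `ρ_s` is irreducible: no
  subspace of `ℂ^r` besides `0` and `ℂ^r` is invariant under all the matrices of `ρ_s`;
* every polynomial `F` in the coordinates that vanishes at all representations with entries in
  the ring of integers `O_L` satisfying the boundary conditions vanishes at every `ρ_s`.
-/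

namespace Vale.Agent.Results.P002.PuncturedSurfacesFullFamily

open Polynomial Vale.Agent.Lib.P002

theorem result (g n r : ℕ) (hN : 2 ≤ 2 * g + n) (c : Fin r → ℂ) (d : Fin n → Fin r → ℂ)
    (hc : ∀ i, IsIntegral ℤ (c i)) (hd : ∀ j i, IsIntegral ℤ (d j i))
    (hc1 : ∏ i, c i = 1) (hd1 : ∀ j, ∏ i, d j i = 1) :
    ∃ L : IntermediateField ℚ ℂ,
      L = IntermediateField.adjoin ℚ (Set.range c ∪
        Set.range (fun v : Fin n × Fin r => d v.1 v.2) ∪ {((Real.sqrt 2 : ℝ) : ℂ)}) ∧
      FiniteDimensional ℚ L ∧
      ∃ (ι : Type) (_ : Fintype ι)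
        (x y : (ι → Units ℂ) → Fin g → Matrix.SpecialLinearGroup (Fin r) ℂ)
        (z : (ι → Units ℂ) → Fin n → Matrix.SpecialLinearGroup (Fin r) ℂ),
        Fintype.card ι + 2 * (r - 1) = (r - 1) * ((2 * g + n - 1) * r + 2 * g) ∧
        (∀ s, (∀ t, (z s t).1.charpoly = ∏ i, (X - C (d t i))) ∧
          ((List.ofFn fun h => x s h * y s h * (x s h)⁻¹ * (y s h)⁻¹).prod *
            (List.ofFn (z s)).prod).1.charpoly = ∏ i, (X - C (c i))) ∧
        (∀ v : (Fin g ⊕ Fin g ⊕ Fin n) × Fin r × Fin r, ∃ P : MvPolynomial (ι ⊕ ι) ℂ,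
          ∀ s : ι → Units ℂ,
            Sum.elim (fun h => (x s h).1) (Sum.elim (fun h => (y s h).1) (fun t => (z s t).1))
              v.1 v.2.1 v.2.2 =
            MvPolynomial.eval
              (Sum.elim (fun i => (s i : ℂ)) (fun i => (((s i)⁻¹ : Units ℂ) : ℂ))) P) ∧
        (Function.Injective c → (∀ j, Function.Injective (d j)) →
          ∀ s s' : ι → Units ℂ,
            (∃ γ : Matrix (Fin r) (Fin r) ℂ, γ.det ≠ 0 ∧
              (∀ h, γ * (x s h).1 = (x s' h).1 * γ) ∧ (∀ h, γ * (y s h).1 = (y s' h).1 * γ) ∧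
              (∀ t, γ * (z s t).1 = (z s' t).1 * γ)) → s = s') ∧
        ((∀ (S : Finset (Fin r)) (T : Fin n → Finset (Fin r)), S.Nonempty →
            S ≠ Finset.univ → (∀ j, (T j).card = S.card) →
            ∏ i ∈ S, c i ≠ ∏ j, ∏ i ∈ T j, d j i) →
          ∀ (s : ι → Units ℂ) (V : Submodule ℂ (Fin r → ℂ)),
            (∀ h, ∀ v ∈ V, (x s h).1.mulVec v ∈ V) → (∀ h, ∀ v ∈ V, (y s h).1.mulVec v ∈ V) →
            (∀ t, ∀ v ∈ V, (z s t).1.mulVec v ∈ V) → V = ⊥ ∨ V = ⊤) ∧
        ∀ F : MvPolynomial ((Fin g ⊕ Fin g ⊕ Fin n) × Fin r × Fin r) ℂ,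
          (∀ (x' y' : Fin g → Matrix.SpecialLinearGroup (Fin r) ℂ)
              (z' : Fin n → Matrix.SpecialLinearGroup (Fin r) ℂ),
            (∀ h i j, (x' h).1 i j ∈ L ∧ IsIntegral ℤ ((x' h).1 i j)) →
            (∀ h i j, (y' h).1 i j ∈ L ∧ IsIntegral ℤ ((y' h).1 i j)) →
            (∀ t i j, (z' t).1 i j ∈ L ∧ IsIntegral ℤ ((z' t).1 i j)) →
            (∀ t, (z' t).1.charpoly = ∏ i, (X - C (d t i))) →
            ((List.ofFn fun h => x' h * y' h * (x' h)⁻¹ * (y' h)⁻¹).prod *
              (List.ofFn z').prod).1.charpoly = ∏ i, (X - C (c i)) →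
            MvPolynomial.eval (fun v => Sum.elim (fun h => (x' h).1)
              (Sum.elim (fun h => (y' h).1) (fun t => (z' t).1)) v.1 v.2.1 v.2.2) F = 0) →
          ∀ s, MvPolynomial.eval (fun v => Sum.elim (fun h => (x s h).1)
            (Sum.elim (fun h => (y s h).1) (fun t => (z s t).1)) v.1 v.2.1 v.2.2) F = 0 :=
  gq_family_irred g n r hN c d hc hd hc1 hd1

end Vale.Agent.Results.P002.PuncturedSurfacesFullFamily
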